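import Vale.Agent.P363.Final

namespace Vale.Agent.Results.P363.NotRep

open Vale.Agent.P363

theorem result : ∃ (Z : Fin 2 → ℕ) (R : Fin 2 → E3), (∀ j, 1 ≤ Z j) ∧ Function.Injective R ∧
    ∃ Ψ : State 3, IsGround (coulomb Z R) Ψ ∧ ¬Representable 2 Ψ.rho :=
  final

end Vale.Agent.Results.P363.NotRep
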